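import Vale.Agent.P146.R3.H868.Scale

/-! P146: a lower bound for the lower tail of the free energy. -/

set_option linter.all false

open MeasureTheory ProbabilityTheory

namespace Vale.Agent.P146.R3.H868

lemma hamiltonian_smul (n : ℕ) (c : ℝ) (g : Pair n → ℝ) (σ : Fin n → ℤˣ) :
    hamiltonian n (fun p => c * g p) σ = c * hamiltonian n g σ := by
  unfold hamiltonian
  simp only [Finset.mul_sum]
  refine Finset.sum_congr rfl fun p _ => ?_
  ring

lemma partitionFn_pos (n : ℕ) (β : ℝ) (g : Pair n → ℝ) : 0 < partitionFn n β g := by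
  unfold partitionFn
  exact Finset.sum_pos (fun σ _ => Real.exp_pos _) ⟨fun _ => 1, Finset.mem_univ _⟩

/-- Contracting the disorder. -/
lemma freeEnergy_scale (n : ℕ) (β : ℝ) (g : Pair n → ℝ) {d : ℝ} (hd : 0 ≤ d) (hd1 : d ≤ 1) :
    freeEnergy n β (fun p => (1 - d) * g p) ≤
      (1 - d) * freeEnergy n β g + d * (n * Real.log 2) := by
  obtain ⟨M, hM⟩ : ∃ M : ℝ, M = (Fintype.card (Fin n → ℤˣ) : ℝ) := ⟨_, rfl⟩
  have hM0 : 0 < M := by rw [hM]; exact_mod_cast Fintype.card_pos
  have hlogM : Real.log M = n * Real.log 2 := by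
    rw [hM, Fintype.card_fun, Fintype.card_fin]
    have : Fintype.card ℤˣ = 2 := by decide
    rw [this]; push_cast; rw [Real.log_pow]
  have hZ := partitionFn_pos n β g
  have h1 : partitionFn n β (fun p => (1 - d) * g p) =
      ∑ σ : Fin n → ℤˣ, (Real.exp (β * hamiltonian n g σ)) ^ (1 - d) := by
    unfold partitionFn
    refine Finset.sum_congr rfl fun σ _ => ?_
    rw [hamiltonian_smul, ← Real.exp_mul]; congr 1; ring
  have hc := (Real.concaveOn_rpow (by linarith : 0 ≤ 1 - d) (by linarith)).le_map_sum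
    (t := (Finset.univ : Finset (Fin n → ℤˣ))) (w := fun _ => M⁻¹)
    (p := fun σ => Real.exp (β * hamiltonian n g σ))
    (fun _ _ => by positivity)
    (by rw [Finset.sum_const, Finset.card_univ, nsmul_eq_mul, ← hM, mul_inv_cancel₀ hM0.ne'])
    (fun σ _ => (Real.exp_pos _).le)
  simp only [smul_eq_mul] at hc
  rw [← Finset.mul_sum, ← Finset.mul_sum, ← h1] at hc
  have h2 : partitionFn n β (fun p => (1 - d) * g p) ≤
      M * (M⁻¹ * partitionFn n β g) ^ (1 - d) := by
    have := mul_le_mul_of_nonneg_left hc hM0.le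
    rwa [← mul_assoc, mul_inv_cancel₀ hM0.ne', one_mul] at this
  unfold freeEnergy
  calc Real.log (partitionFn n β (fun p => (1 - d) * g p)) ≤
        Real.log (M * (M⁻¹ * partitionFn n β g) ^ (1 - d)) :=
        Real.log_le_log (partitionFn_pos _ _ _) h2
    _ = Real.log M + (1 - d) * (-Real.log M + Real.log (partitionFn n β g)) := by
        rw [Real.log_mul hM0.ne' (by positivity), Real.log_rpow (by positivity),
          Real.log_mul (by positivity) hZ.ne', Real.log_inv]
    _ = (1 - d) * Real.log (partitionFn n β g) + d * (n * Real.log 2) := by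
        rw [← hlogM]; ring

@[fun_prop]
lemma measurable_freeEnergy (n : ℕ) (β : ℝ) : Measurable (freeEnergy n β) := by
  unfold freeEnergy partitionFn hamiltonian
  fun_prop

lemma card_pair (n : ℕ) : 2 * (Fintype.card (Pair n) : ℝ) ≤ (n : ℝ) ^ 2 := by
  have e : Pair n ≃ {p : Fin n × Fin n // p.2 < p.1} :=
    { toFun := fun p => ⟨(p.1.2, p.1.1), p.2⟩
      invFun := fun p => ⟨(p.1.2, p.1.1), p.2⟩
      left_inv := fun p => rfl
      right_inv := fun p => rfl }
  have h1 := Fintype.card_congr e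
  have h2 : Fintype.card (Pair n ⊕ {p : Fin n × Fin n // p.2 < p.1}) ≤
      Fintype.card (Fin n × Fin n) := by
    refine Fintype.card_le_of_injective (Sum.elim (fun p => p.1) (fun p => p.1)) ?_
    rintro (⟨a, ha⟩ | ⟨a, ha⟩) (⟨b, hb⟩ | ⟨b, hb⟩) h
    · simp only [Sum.elim_inl] at h; subst h; rfl
    · simp only [Sum.elim_inl, Sum.elim_inr] at h; subst h; exact absurd ha (lt_asymm hb)
    · simp only [Sum.elim_inl, Sum.elim_inr] at h; subst h; exact absurd ha (lt_asymm hb)
    · simp only [Sum.elim_inr] at h; subst h; rfl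
  rw [Fintype.card_sum, ← h1, Fintype.card_prod, Fintype.card_fin] at h2
  have h3 : ((Fintype.card (Pair n) + Fintype.card (Pair n) : ℕ) : ℝ) ≤ ((n * n : ℕ) : ℝ) := by
    exact_mod_cast h2
  push_cast at h3
  nlinarith

/-- **Lower bound for the lower tail**: the probability of `F ≤ n (p - s)` is at least
`exp (-4 s² n² / (p - log 2)²)` times the square of the probability of `F ≤ n (p + s)`. -/
theorem low_prob {n : ℕ} {β p s : ℝ} (hp : Real.log 2 < p) (hs : 0 ≤ s)
    (hs' : 8 * s ≤ p - Real.log 2) :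
    (disorder n).real {g | freeEnergy n β g ≤ n * (p + s)} ^ 2 *
        Real.exp (-(4 * s ^ 2 * n ^ 2 / (p - Real.log 2) ^ 2)) ≤
      (disorder n).real {g | freeEnergy n β g ≤ n * (p - s)} := by
  have hq : 0 < p - Real.log 2 := by linarith
  obtain ⟨d, hd⟩ : ∃ d, d = 2 * s / (p - Real.log 2) := ⟨_, rfl⟩
  have hd0 : 0 ≤ d := by rw [hd]; positivity
  have hd1 : d ≤ 1 / 4 := by rw [hd, div_le_iff₀ hq]; linarith
  have hdp : d * (p - Real.log 2) = 2 * s := by rw [hd]; field_simp
  have hBm : MeasurableSet {g | freeEnergy n β g ≤ n * (p - s)} :=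
    measurableSet_le (measurable_freeEnergy n β) measurable_const
  have h1 := scale_prob (ι := Pair n) hd0 hd1 hBm
  have hsub : {g | freeEnergy n β g ≤ n * (p + s)} ⊆
      {J : Pair n → ℝ | (fun i => (1 - d) * J i) ∈ {g | freeEnergy n β g ≤ n * (p - s)}} := by
    intro g hg
    have hg' : freeEnergy n β g ≤ n * (p + s) := hg
    show freeEnergy n β (fun i => (1 - d) * g i) ≤ n * (p - s)
    have h2 := freeEnergy_scale n β g hd0 (by linarith)
    have h3 : (1 - d) * freeEnergy n β g ≤ (1 - d) * (n * (p + s)) :=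
      mul_le_mul_of_nonneg_left hg' (by linarith)
    have h4 : (1 - d) * (n * (p + s)) + d * (n * Real.log 2) = n * (p - s) - n * (d * s) := by
      have : (1 - d) * (n * (p + s)) + d * (n * Real.log 2) =
          n * (p + s) - n * (d * (p - Real.log 2)) - n * (d * s) := by ring
      rw [this, hdp]; ring
    have h5 : 0 ≤ (n : ℝ) * (d * s) := by positivity
    linarith
  have hpm : IsProbabilityMeasure (disorder n) := by unfold disorder; infer_instance
  have hmono : (disorder n).real {g | freeEnergy n β g ≤ n * (p + s)} ≤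
      (Measure.pi fun _ : Pair n => gaussianReal 0 1).real
        {J : Pair n → ℝ | (fun i => (1 - d) * J i) ∈ {g | freeEnergy n β g ≤ n * (p - s)}} :=
    measureReal_mono hsub
  have h6 : (disorder n).real {g | freeEnergy n β g ≤ n * (p + s)} ^ 2 ≤
      Real.exp (2 * d ^ 2) ^ Fintype.card (Pair n) *
        (disorder n).real {g | freeEnergy n β g ≤ n * (p - s)} :=
    (pow_le_pow_left₀ measureReal_nonneg hmono 2).trans h1
  have h7 : Real.exp (2 * d ^ 2) ^ Fintype.card (Pair n) ≤
      Real.exp (4 * s ^ 2 * n ^ 2 / (p - Real.log 2) ^ 2) := by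
    rw [← Real.exp_nat_mul]
    apply Real.exp_le_exp.mpr
    have h8 : 4 * s ^ 2 * n ^ 2 / (p - Real.log 2) ^ 2 = d ^ 2 * n ^ 2 := by
      rw [hd]; field_simp; ring
    rw [h8]
    have := mul_le_mul_of_nonneg_left (card_pair n) (sq_nonneg d)
    linarith
  have h9 : 0 ≤ (disorder n).real {g | freeEnergy n β g ≤ n * (p - s)} := measureReal_nonneg
  calc (disorder n).real {g | freeEnergy n β g ≤ n * (p + s)} ^ 2 *
        Real.exp (-(4 * s ^ 2 * n ^ 2 / (p - Real.log 2) ^ 2)) ≤
      (Real.exp (4 * s ^ 2 * n ^ 2 / (p - Real.log 2) ^ 2) *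
        (disorder n).real {g | freeEnergy n β g ≤ n * (p - s)}) *
        Real.exp (-(4 * s ^ 2 * n ^ 2 / (p - Real.log 2) ^ 2)) := by
        refine mul_le_mul_of_nonneg_right (h6.trans ?_) (Real.exp_pos _).le
        exact mul_le_mul_of_nonneg_right h7 h9
    _ = (disorder n).real {g | freeEnergy n β g ≤ n * (p - s)} *
        (Real.exp (4 * s ^ 2 * n ^ 2 / (p - Real.log 2) ^ 2) *
          Real.exp (-(4 * s ^ 2 * n ^ 2 / (p - Real.log 2) ^ 2))) := by ring
    _ = (disorder n).real {g | freeEnergy n β g ≤ n * (p - s)} := by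
        rw [← Real.exp_add, add_neg_cancel, Real.exp_zero, mul_one]

/-- Chebyshev: the typical event has probability at least one half. -/
theorem half_le {n : ℕ} {β p s V : ℝ} (hn : 1 ≤ n) (hs : 0 < s)
    (hL : MemLp (freeEnergy n β) 2 (disorder n))
    (hE : ∫ g, freeEnergy n β g ∂(disorder n) ≤ n * p)
    (hV : Var[freeEnergy n β; disorder n] ≤ V) (hVs : 2 * V ≤ (n * s) ^ 2) :
    1 / 2 ≤ (disorder n).real {g | freeEnergy n β g ≤ n * (p + s)} := by
  have hpm : IsProbabilityMeasure (disorder n) := by unfold disorder; infer_instance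
  have hn0 : (0 : ℝ) < n := by exact_mod_cast hn
  have hns : 0 < n * s := by positivity
  have hc := meas_ge_le_variance_div_sq hL hns
  have h1 : (disorder n).real {g | n * s ≤ |freeEnergy n β g -
      ∫ g, freeEnergy n β g ∂(disorder n)|} ≤ 1 / 2 := by
    have h2 : (disorder n).real {g | n * s ≤ |freeEnergy n β g -
      ∫ g, freeEnergy n β g ∂(disorder n)|} ≤ Var[freeEnergy n β; disorder n] / (n * s) ^ 2 := by
      rw [Measure.real]
      exact ENNReal.toReal_le_of_le_ofReal (div_nonneg (variance_nonneg _ _) (sq_nonneg _)) hc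
    refine h2.trans ?_
    rw [div_le_iff₀ (by positivity)]
    linarith
  have hm : MeasurableSet {g | freeEnergy n β g ≤ n * (p + s)} :=
    measurableSet_le (measurable_freeEnergy n β) measurable_const
  have h3 : (disorder n).real {g | freeEnergy n β g ≤ n * (p + s)}ᶜ ≤ 1 / 2 := by
    refine (measureReal_mono ?_).trans h1
    intro g hg
    have hg' : n * (p + s) < freeEnergy n β g := not_le.mp hg
    show n * s ≤ |_|
    refine le_trans ?_ (le_abs_self _)
    nlinarith
  have h4 := probReal_compl_eq_one_sub (μ := disorder n) hm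
  linarith

/-- The final form. -/
theorem low_final {n : ℕ} {β p s V : ℝ} (hn : 1 ≤ n) (hp : Real.log 2 < p) (hs : 0 < s)
    (hs' : 8 * s ≤ p - Real.log 2)
    (hL : MemLp (freeEnergy n β) 2 (disorder n))
    (hE : ∫ g, freeEnergy n β g ∂(disorder n) ≤ n * p)
    (hV : Var[freeEnergy n β; disorder n] ≤ V) (hVs : 2 * V ≤ (n * s) ^ 2)
    (hbig : 2 * (p - Real.log 2) ^ 2 ≤ s ^ 2 * n ^ 2) :
    Real.exp (-(5 * s ^ 2 * n ^ 2 / (p - Real.log 2) ^ 2)) ≤
      (disorder n).real {g | freeEnergy n β g ≤ n * (p - s)} := by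
  have hq : 0 < (p - Real.log 2) ^ 2 := by
    have : 0 < p - Real.log 2 := by linarith
    positivity
  have h1 := half_le hn hs hL hE hV hVs
  have h2 := low_prob (n := n) (β := β) hp hs.le hs'
  have h3 : (1 / 4 : ℝ) ≤ (disorder n).real {g | freeEnergy n β g ≤ n * (p + s)} ^ 2 := by
    nlinarith
  have h4 : Real.exp (-(s ^ 2 * n ^ 2 / (p - Real.log 2) ^ 2)) ≤ 1 / 4 := by
    have h5 : 2 ≤ s ^ 2 * n ^ 2 / (p - Real.log 2) ^ 2 := by rw [le_div_iff₀ hq]; linarith
    have h6 : Real.exp (-(s ^ 2 * n ^ 2 / (p - Real.log 2) ^ 2)) ≤ Real.exp (-2) :=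
      Real.exp_le_exp.mpr (by linarith)
    have h7 : (4 : ℝ) ≤ Real.exp 2 := by
      have := Real.add_one_le_exp (1 : ℝ)
      have h8 : Real.exp 2 = Real.exp 1 * Real.exp 1 := by rw [← Real.exp_add]; norm_num
      rw [h8]; nlinarith
    refine h6.trans ?_
    rw [Real.exp_neg, one_div]
    exact inv_anti₀ (by norm_num) h7
  calc Real.exp (-(5 * s ^ 2 * n ^ 2 / (p - Real.log 2) ^ 2))
      = Real.exp (-(s ^ 2 * n ^ 2 / (p - Real.log 2) ^ 2)) *
        Real.exp (-(4 * s ^ 2 * n ^ 2 / (p - Real.log 2) ^ 2)) := by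
        rw [← Real.exp_add]; congr 1; ring
    _ ≤ (disorder n).real {g | freeEnergy n β g ≤ n * (p + s)} ^ 2 *
        Real.exp (-(4 * s ^ 2 * n ^ 2 / (p - Real.log 2) ^ 2)) :=
        mul_le_mul_of_nonneg_right (h4.trans h3) (Real.exp_pos _).le
    _ ≤ _ := h2

end Vale.Agent.P146.R3.H868
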