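import Vale.Agent.P146.Defs

/-! P146: scaling of the disorder and a lower bound for the lower tail. -/

set_option linter.all false

open MeasureTheory ProbabilityTheory

namespace Vale.Agent.P146.R3.H868

/-- The density of the centred Gaussian of standard deviation `σ` with respect to the standard
Gaussian. -/
noncomputable def rho (σ x : ℝ) : ℝ := σ⁻¹ * Real.exp (-(x ^ 2 * (σ⁻¹ ^ 2 - 1) / 2))

lemma rho_nonneg {σ : ℝ} (hσ : 0 < σ) (x : ℝ) : 0 ≤ rho σ x := by
  unfold rho; positivity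

@[fun_prop]
lemma rho_measurable (σ : ℝ) : Measurable (rho σ) := by
  unfold rho; fun_prop

lemma gauss_scale_aux {σ : ℝ} (hσ : 0 < σ) (v : NNReal) (hv : (v : ℝ) = σ ^ 2) :
    gaussianReal 0 v = (gaussianReal 0 1).withDensity (fun x => ENNReal.ofReal (rho σ x)) := by
  have hv0 : v ≠ 0 := by
    rintro rfl
    rw [NNReal.coe_zero] at hv
    exact absurd hv (by positivity)
  rw [gaussianReal_of_var_ne_zero _ hv0, gaussianReal_of_var_ne_zero _ one_ne_zero,
    ← withDensity_mul _ (measurable_gaussianPDF 0 1) (by fun_prop)]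
  congr 1
  funext x
  simp only [Pi.mul_apply, gaussianPDF_def]
  rw [← ENNReal.ofReal_mul (gaussianPDFReal_nonneg _ _ _)]
  congr 1
  simp only [gaussianPDFReal_def, rho]
  have e : Real.exp (-(x - 0) ^ 2 / (2 * (v : ℝ)))
      = Real.exp (-(x - 0) ^ 2 / (2 * ((1 : NNReal) : ℝ))) *
        Real.exp (-(x ^ 2 * (σ⁻¹ ^ 2 - 1) / 2)) := by
    rw [← Real.exp_add]
    congr 1
    rw [hv]
    push_cast
    field_simp
    ring
  rw [e]
  have e2 : (Real.sqrt (2 * Real.pi * (v : ℝ)))⁻¹ =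
      (Real.sqrt (2 * Real.pi * ((1 : NNReal) : ℝ)))⁻¹ * σ⁻¹ := by
    rw [hv, NNReal.coe_one, mul_one, Real.sqrt_mul (by positivity),
      Real.sqrt_sq hσ.le, mul_inv]
  rw [e2]
  ring

lemma gauss_scale {σ : ℝ} (hσ : 0 < σ) : (gaussianReal 0 1).map (fun x => σ * x)
    = (gaussianReal 0 1).withDensity (fun x => ENNReal.ofReal (rho σ x)) := by
  rw [gaussianReal_map_const_mul, mul_zero, mul_one]
  exact gauss_scale_aux hσ _ rfl

lemma rho_sq {σ : ℝ} (hσ : 0 < σ) (hσ1 : σ ≤ 1) :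
    ∫ x, rho σ x ^ 2 ∂(gaussianReal 0 1) = σ⁻¹ ^ 2 * (Real.sqrt (2 * σ⁻¹ ^ 2 - 1))⁻¹ := by
  have h1 : 1 ≤ σ⁻¹ ^ 2 := by
    have : 1 ≤ σ⁻¹ := (one_le_inv₀ hσ).mpr hσ1
    nlinarith
  rw [integral_gaussianReal_eq_integral_smul one_ne_zero]
  have e : ∀ x : ℝ, gaussianPDFReal 0 1 x • rho σ x ^ 2 =
      ((Real.sqrt (2 * Real.pi))⁻¹ * σ⁻¹ ^ 2) * Real.exp (-(σ⁻¹ ^ 2 - 1 / 2) * x ^ 2) := by
    intro x
    simp only [gaussianPDFReal_def, rho, smul_eq_mul, mul_pow, NNReal.coe_one, mul_one, sub_zero]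
    rw [← Real.exp_nat_mul]
    have : Real.exp (-(σ⁻¹ ^ 2 - 1 / 2) * x ^ 2) = Real.exp (-x ^ 2 / 2) *
        Real.exp (((2 : ℕ) : ℝ) * (-(x ^ 2 * (σ⁻¹ ^ 2 - 1) / 2))) := by
      rw [← Real.exp_add]; congr 1; push_cast; ring
    rw [this]; ring
  simp_rw [e]
  rw [integral_const_mul, integral_gaussian]
  have h2 : 0 < 2 * σ⁻¹ ^ 2 - 1 := by linarith
  have h3 : Real.pi / (σ⁻¹ ^ 2 - 1 / 2) = 2 * Real.pi / (2 * σ⁻¹ ^ 2 - 1) := by
    have : σ⁻¹ ^ 2 - 1 / 2 ≠ 0 := by
      have : 0 < σ⁻¹ ^ 2 - 1 / 2 := by linarith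
      exact this.ne'
    rw [div_eq_div_iff this h2.ne']; ring
  rw [h3, Real.sqrt_div (by positivity)]
  have h4 : Real.sqrt (2 * Real.pi) ≠ 0 := by positivity
  field_simp

lemma rho_sq_le {d : ℝ} (hd : 0 ≤ d) (hd1 : d ≤ 1 / 4) :
    ∫ x, rho (1 - d) x ^ 2 ∂(gaussianReal 0 1) ≤ Real.exp (2 * d ^ 2) := by
  have hσ : 0 < 1 - d := by linarith
  rw [rho_sq hσ (by linarith)]
  obtain ⟨s, hs⟩ : ∃ s, s = 1 - d := ⟨_, rfl⟩
  rw [← hs] at hσ ⊢
  have h0 : 0 < 2 - s ^ 2 := by nlinarith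
  have e1 : 2 * s⁻¹ ^ 2 - 1 = (2 - s ^ 2) * s⁻¹ ^ 2 := by field_simp
  rw [e1, Real.sqrt_mul h0.le, Real.sqrt_sq (by positivity)]
  have e2 : s⁻¹ ^ 2 * (Real.sqrt (2 - s ^ 2) * s⁻¹)⁻¹ = (s * Real.sqrt (2 - s ^ 2))⁻¹ := by
    have : Real.sqrt (2 - s ^ 2) ≠ 0 := (Real.sqrt_pos.mpr h0).ne'
    field_simp
  rw [e2]
  have h1 : Real.exp (-(2 * d ^ 2)) ≤ s * Real.sqrt (2 - s ^ 2) := by
    apply le_of_sq_le_sq _ (by positivity)
    rw [mul_pow, Real.sq_sqrt h0.le, ← Real.exp_nat_mul]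
    have h2 : Real.exp (((2 : ℕ) : ℝ) * (-(2 * d ^ 2))) ≤ (1 + 4 * d ^ 2)⁻¹ := by
      have : ((2 : ℕ) : ℝ) * (-(2 * d ^ 2)) = -(4 * d ^ 2) := by push_cast; ring
      rw [this, Real.exp_neg]
      apply inv_anti₀ (by positivity)
      have := Real.add_one_le_exp (4 * d ^ 2)
      linarith
    refine h2.trans ?_
    rw [inv_le_iff_one_le_mul₀ (by positivity), hs]
    nlinarith [mul_nonneg hd hd, mul_nonneg (mul_nonneg hd hd) hd,
      mul_nonneg (mul_nonneg (mul_nonneg hd hd) hd) (by linarith : (0:ℝ) ≤ 1 / 4 - d)]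
  calc (s * Real.sqrt (2 - s ^ 2))⁻¹ ≤ (Real.exp (-(2 * d ^ 2)))⁻¹ :=
        inv_anti₀ (Real.exp_pos _) h1
    _ = Real.exp (2 * d ^ 2) := by rw [← Real.exp_neg, neg_neg]

lemma rho_le {σ : ℝ} (hσ : 0 < σ) (hσ1 : σ ≤ 1) (x : ℝ) : rho σ x ≤ σ⁻¹ := by
  unfold rho
  have h1 : 1 ≤ σ⁻¹ ^ 2 := by
    have : 1 ≤ σ⁻¹ := (one_le_inv₀ hσ).mpr hσ1
    nlinarith
  have h2 : Real.exp (-(x ^ 2 * (σ⁻¹ ^ 2 - 1) / 2)) ≤ 1 := by
    rw [Real.exp_le_one_iff]
    have := mul_nonneg (sq_nonneg x) (by linarith : 0 ≤ σ⁻¹ ^ 2 - 1)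
    linarith
  calc σ⁻¹ * Real.exp (-(x ^ 2 * (σ⁻¹ ^ 2 - 1) / 2)) ≤ σ⁻¹ * 1 :=
        mul_le_mul_of_nonneg_left h2 (by positivity)
    _ = σ⁻¹ := mul_one _

lemma rho_integrable {σ : ℝ} (hσ : 0 < σ) (hσ1 : σ ≤ 1) :
    Integrable (rho σ) (gaussianReal 0 1) :=
  Integrable.of_bound (rho_measurable σ).aestronglyMeasurable σ⁻¹
    (Filter.Eventually.of_forall fun x => by
      rw [Real.norm_of_nonneg (rho_nonneg hσ x)]; exact rho_le hσ hσ1 x)

lemma rho_sq_integrable {σ : ℝ} (hσ : 0 < σ) (hσ1 : σ ≤ 1) :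
    Integrable (fun x => rho σ x ^ 2) (gaussianReal 0 1) :=
  Integrable.of_bound ((rho_measurable σ).pow_const 2).aestronglyMeasurable (σ⁻¹ ^ 2)
    (Filter.Eventually.of_forall fun x => by
      rw [Real.norm_of_nonneg (by positivity)]
      exact pow_le_pow_left₀ (rho_nonneg hσ x) (rho_le hσ hσ1 x) 2)

variable {ι : Type*} [Fintype ι]

lemma pi_scale {σ : ℝ} (hσ : 0 < σ) (hσ1 : σ ≤ 1) :
    (Measure.pi fun _ : ι => gaussianReal 0 1).map (fun J i => σ * J i)
      = (Measure.pi fun _ : ι => gaussianReal 0 1).withDensity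
        (fun J => ENNReal.ofReal (∏ i, rho σ (J i))) := by
  have h1 : (Measure.pi fun _ : ι => gaussianReal 0 1).map (fun J i => σ * J i)
      = Measure.pi fun i : ι => (gaussianReal 0 1).map (fun x => σ * x) := by
    have : ∀ i : ι, SigmaFinite ((gaussianReal 0 1).map (fun x => σ * x)) := by
      intro i
      rw [gaussianReal_map_const_mul]
      infer_instance
    exact Measure.pi_map_pi (μ := fun _ : ι => gaussianReal 0 1) (f := fun i x => σ * x)
      (fun i => by fun_prop)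
  rw [h1]
  have : ∀ i : ι, SigmaFinite ((gaussianReal 0 1).map (fun x => σ * x)) := by
    intro i
    rw [gaussianReal_map_const_mul]
    infer_instance
  apply Measure.pi_eq
  intro s hs
  have hbox : MeasurableSet (Set.univ.pi s) := MeasurableSet.univ_pi hs
  rw [withDensity_apply _ hbox]
  have hint : Integrable (fun J : ι → ℝ => ∏ i, rho σ (J i))
      (Measure.pi fun _ : ι => gaussianReal 0 1) :=
    Integrable.fintype_prod (f := fun i x => rho σ x) (fun i => rho_integrable hσ hσ1)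
  have hnn : ∀ J : ι → ℝ, 0 ≤ ∏ i, rho σ (J i) := fun J =>
    Finset.prod_nonneg fun i _ => rho_nonneg hσ _
  rw [← ofReal_integral_eq_lintegral_ofReal hint.integrableOn
    (Filter.Eventually.of_forall hnn)]
  rw [← integral_indicator hbox]
  have hind : (Set.univ.pi s).indicator (fun J : ι → ℝ => ∏ i, rho σ (J i))
      = fun J => ∏ i, (s i).indicator (fun x => rho σ x) (J i) := by
    funext J
    by_cases hJ : J ∈ Set.univ.pi s
    · rw [Set.indicator_of_mem hJ]
      apply Finset.prod_congr rfl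
      intro i _
      rw [Set.indicator_of_mem (hJ i (Set.mem_univ i))]
    · rw [Set.indicator_of_notMem hJ]
      simp only [Set.mem_univ_pi, not_forall] at hJ
      obtain ⟨i, hi⟩ := hJ
      symm
      apply Finset.prod_eq_zero (Finset.mem_univ i)
      rw [Set.indicator_of_notMem hi]
  rw [hind, integral_fintype_prod_eq_prod (𝕜 := ℝ)
    (fun (i : ι) (x : ℝ) => (s i).indicator (fun x => rho σ x) x)
    (μ := fun _ => gaussianReal 0 1)]
  rw [ENNReal.ofReal_prod_of_nonneg]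
  · apply Finset.prod_congr rfl
    intro i _
    rw [gauss_scale hσ, withDensity_apply _ (hs i), integral_indicator (hs i)]
    rw [ofReal_integral_eq_lintegral_ofReal]
    · exact (rho_integrable hσ hσ1).integrableOn
    · exact Filter.Eventually.of_forall fun x => rho_nonneg hσ x
  · intro i _
    apply integral_nonneg
    intro x
    apply Set.indicator_nonneg
    intro x _
    exact rho_nonneg hσ x

/-- **Scaling of the disorder.** -/
theorem scale_prob {d : ℝ} (hd : 0 ≤ d) (hd1 : d ≤ 1 / 4) {B : Set (ι → ℝ)}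
    (hB : MeasurableSet B) :
    (Measure.pi fun _ : ι => gaussianReal 0 1).real {J | (fun i => (1 - d) * J i) ∈ B} ^ 2 ≤
      Real.exp (2 * d ^ 2) ^ Fintype.card ι *
        (Measure.pi fun _ : ι => gaussianReal 0 1).real B := by
  have hσ : 0 < 1 - d := by linarith
  have hσ1 : 1 - d ≤ 1 := by linarith
  obtain ⟨μ, hμ⟩ : ∃ μ, μ = (Measure.pi fun _ : ι => gaussianReal 0 1) := ⟨_, rfl⟩
  have hpm : IsProbabilityMeasure μ := by rw [hμ]; infer_instance
  obtain ⟨f, hf⟩ : ∃ f : (ι → ℝ) → ℝ, f = fun J => ∏ i, rho (1 - d) (J i) := ⟨_, rfl⟩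
  have hfm : Measurable f := by rw [hf]; fun_prop
  have hfn : ∀ J, 0 ≤ f J := fun J => by
    rw [hf]; exact Finset.prod_nonneg fun i _ => rho_nonneg hσ _
  have hfi : Integrable f μ := by
    rw [hf, hμ]
    exact Integrable.fintype_prod (f := fun i x => rho (1 - d) x)
      (fun i => rho_integrable hσ hσ1)
  have hf2 : (fun J => f J ^ 2) = fun J => ∏ i, rho (1 - d) (J i) ^ 2 := by
    funext J; rw [hf, Finset.prod_pow]
  have hf2i : Integrable (fun J => f J ^ 2) μ := by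
    rw [hf2, hμ]
    exact Integrable.fintype_prod (f := fun i x => rho (1 - d) x ^ 2)
      (fun i => rho_sq_integrable hσ hσ1)
  have hQ : ∫ J, f J ^ 2 ∂μ ≤ Real.exp (2 * d ^ 2) ^ Fintype.card ι := by
    rw [hf2, hμ, integral_fintype_prod_eq_prod (𝕜 := ℝ)
      (fun (i : ι) (x : ℝ) => rho (1 - d) x ^ 2) (μ := fun _ => gaussianReal 0 1)]
    rw [← Finset.card_univ, ← Finset.prod_const]
    refine Finset.prod_le_prod (fun i _ => integral_nonneg fun x => by positivity)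
      (fun i _ => rho_sq_le hd hd1)
  have hP : μ.real {J | (fun i => (1 - d) * J i) ∈ B} = ∫ J, B.indicator 1 J * f J ∂μ := by
    have h1 : μ {J | (fun i => (1 - d) * J i) ∈ B} = (μ.map (fun J i => (1 - d) * J i)) B := by
      rw [Measure.map_apply (by fun_prop) hB]; rfl
    rw [Measure.real, h1, hμ, pi_scale hσ hσ1, ← hμ, withDensity_apply _ hB]
    have h2 : ∀ J, ENNReal.ofReal (∏ i, rho (1 - d) (J i)) = ENNReal.ofReal (f J) := by
      intro J; rw [hf]
    simp_rw [h2]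
    rw [← ofReal_integral_eq_lintegral_ofReal hfi.integrableOn
      (Filter.Eventually.of_forall hfn), ENNReal.toReal_ofReal
        (integral_nonneg fun J => hfn J), ← integral_indicator hB]
    congr 1
    funext J
    by_cases hJ : J ∈ B
    · rw [Set.indicator_of_mem hJ, Set.indicator_of_mem hJ, Pi.one_apply, one_mul]
    · rw [Set.indicator_of_notMem hJ, Set.indicator_of_notMem hJ, zero_mul]
  have hind : Integrable (B.indicator (1 : (ι → ℝ) → ℝ)) μ :=
    (integrable_const (1 : ℝ)).indicator hB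
  have hindf : Integrable (fun J => B.indicator 1 J * f J) μ := by
    have : (fun J => B.indicator 1 J * f J) = B.indicator f := by
      funext J
      by_cases hJ : J ∈ B
      · rw [Set.indicator_of_mem hJ, Set.indicator_of_mem hJ, Pi.one_apply, one_mul]
      · rw [Set.indicator_of_notMem hJ, Set.indicator_of_notMem hJ, zero_mul]
    rw [this]
    exact hfi.indicator hB
  have hBr : μ.real B = ∫ J, B.indicator (1 : (ι → ℝ) → ℝ) J ∂μ := by
    rw [integral_indicator_one hB]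
  -- the quadratic inequality
  have hquad : ∀ t : ℝ, 0 ≤ μ.real B * (t * t) +
      (-(2 * μ.real {J | (fun i => (1 - d) * J i) ∈ B})) * t + ∫ J, f J ^ 2 ∂μ := by
    intro t
    have h1 : 0 ≤ ∫ J, (B.indicator (1 : (ι → ℝ) → ℝ) J * (t * t) -
        2 * t * (B.indicator 1 J * f J) + f J ^ 2) ∂μ := by
      apply integral_nonneg
      intro J
      show 0 ≤ _
      by_cases hJ : J ∈ B
      · simp only [Set.indicator_of_mem hJ, Pi.one_apply]
        nlinarith [sq_nonneg (t - f J)]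
      · simp only [Set.indicator_of_notMem hJ]
        nlinarith [sq_nonneg (f J)]
    have i1 : Integrable (fun J => B.indicator (1 : (ι → ℝ) → ℝ) J * (t * t)) μ :=
      hind.mul_const _
    have i2 : Integrable (fun J => 2 * t * (B.indicator 1 J * f J)) μ := hindf.const_mul _
    have i3 : Integrable (fun J => B.indicator (1 : (ι → ℝ) → ℝ) J * (t * t) -
        2 * t * (B.indicator 1 J * f J)) μ := i1.sub i2
    rw [integral_add i3 hf2i, integral_sub i1 i2, integral_mul_const,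
      integral_const_mul, ← hBr, ← hP] at h1
    linarith
  have hdisc := discrim_le_zero hquad
  rw [discrim] at hdisc
  rw [← hμ]
  have hB0 : 0 ≤ μ.real B := measureReal_nonneg
  nlinarith [mul_le_mul_of_nonneg_left hQ hB0]

end Vale.Agent.P146.R3.H868
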